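import Mathlib
import Vale.Agent.P333.X.PTc
import Vale.Agent.P333.G.Base

set_option linter.all false

/-!
P333, ratio `2`: the algorithm and the statements of the parts.
-/

namespace Vale.Agent.P333.Y

open Vale.Agent.P333 Vale.Agent.P333.U Vale.Agent.P333.E Vale.Agent.P333.G Vale.Agent.Lib.PolyTime

/-- Circles, closed walks and classes: lists of strings. -/
abbrev Cir := List (List ℕ)

/-- Bound for the number and the lengths of the strings. -/
def bnd (S : List (List ℕ)) : ℕ := S.flatten.length + 1

/-- The first element of a list with the largest value. -/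
def amax {α : Type} (f : α → ℕ) (d : α) (l : List α) : α :=
  l.foldl (fun b x => if f b < f x then x else b) (l.headD d)

/-- The first element of a list with the smallest value. -/
def amin {α : Type} (f : α → ℕ) (d : α) (l : List α) : α :=
  l.foldl (fun b x => if f x < f b then x else b) (l.headD d)

/-! ### The assignment problem for a set `F` of contracted circles -/

/-- The classes: the circles of `F`; the other strings are alone. -/
def nodes (L F : List Cir) : List Cir :=
  L.flatMap (fun c => if decide (c ∈ F) then [c] else c.map (fun s => [s]))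

/-- Exits of a class, with the doubled penalty. -/
def exs (F : List Cir) (n : Cir) : List (List ℕ × ℕ) :=
  if decide (n ∈ F) then (cprs [] n).map (fun e => (e.1, ov e.1 e.2)) else n.map (fun s => (s, 0))

/-- Entries of a class, with the doubled penalty. -/
def ens (F : List Cir) (n : Cir) : List (List ℕ × ℕ) :=
  if decide (n ∈ F) then (cprs [] n).map (fun e => (e.2, ov e.1 e.2)) else n.map (fun s => (s, 0))

/-- Doubled gain of an arc, shifted by `2 * B`. -/
def gv (B : ℕ) (p q : List ℕ × ℕ) : ℕ := 2 * B + 2 * ov p.1 q.1 - (p.2 + q.2)

/-- The arc which is used from the class `n` to the class `m`. -/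
def pk (B : ℕ) (F : List Cir) (n m : Cir) : (List ℕ × ℕ) × (List ℕ × ℕ) :=
  if decide (n ∈ F) && decide (n = m) then ((n.getLastD [], cycO n), (n.headD [], cycO n))
  else amax (fun p => gv B p.1 p.2) (([], 0), ([], 0))
    ((exs F n).flatMap (fun p => (ens F m).map (fun q => (p, q))))

/-- Doubled gain of a pair of classes, shifted by `2 * B`. -/
def gn (B : ℕ) (F : List Cir) (n m : Cir) : ℕ :=
  if decide (n ∈ F) && decide (n = m) then 2 * B + 2 * cycW n - 2 * cycO n
  else gv B (pk B F n m).1 (pk B F n m).2

/-- The matrix of gains. -/
def gmat (B : ℕ) (F N : List Cir) : List (List ℕ) := N.map (fun n => N.map (fun m => gn B F n m))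

/-- Doubled cost of a class. -/
def base2 (F : List Cir) (n : Cir) : ℕ :=
  if decide (n ∈ F) then 2 * cycW n else 2 * (n.headD []).length

/-- The optimal assignment. -/
def asgF (asg : List Unit × List (List ℕ) → List ℕ) (B : ℕ) (F N : List Cir) : List ℕ :=
  asg (List.replicate (4 * B) (), gmat B F N)

/-- Number of arcs of the assignment which leave the circle `c`. -/
def lv (N : List Cir) (P : List ℕ) (c : Cir) : ℕ :=
  (List.range N.length).countP (fun i => decide ((N.getD i []).headD [] ∈ c) &&
    !decide ((N.getD (P.getD i 0) []).headD [] ∈ c))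

/-! ### Subgradient phase -/

/-- Index of the circle of a string. -/
def lab (L : List Cir) (s : List ℕ) : ℕ := L.findIdx (fun c => decide (s ∈ c))

/-- Matrix with multipliers. -/
def smat (R : ℕ) (L N : List Cir) (μ : List ℕ) : List (List ℕ) :=
  N.map (fun n => N.map (fun m => R * ov (n.headD []) (m.headD []) +
    if decide (lab L (n.headD []) = lab L (m.headD [])) then 0
    else μ.getD (lab L (n.headD [])) 0))

/-- The assignment of a round. -/
def subP (asg : List Unit × List (List ℕ) → List ℕ) (B R T : ℕ) (L : List Cir) (μ : List ℕ) :
    List ℕ := asg (List.replicate (R * B + T) (), smat R L (nodes L []) μ)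

/-- One round: multipliers and sums of the numbers of leaving arcs. -/
def subStep (asg : List Unit × List (List ℕ) → List ℕ) (B R T : ℕ) (L : List Cir)
    (st : List ℕ × List ℕ) : List ℕ × List ℕ :=
  ((List.range L.length).map (fun k => if big (L.getD k []) then
      st.1.getD k 0 + 1 - lv (nodes L []) (subP asg B R T L st.1) (L.getD k []) else 0),
    (List.range L.length).map (fun k =>
      st.2.getD k 0 + lv (nodes L []) (subP asg B R T L st.1) (L.getD k [])))

/-- Parameters (`B` is at least the number of strings, and at least `2`). -/
def parR (B : ℕ) : ℕ := 16 * B ^ 4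

/-- Parameters. -/
def parT (B : ℕ) : ℕ := 4096 * B ^ 20

/-- Result of the first phase. -/
def sub (asg : List Unit × List (List ℕ) → List ℕ) (B : ℕ) (L : List Cir) : List ℕ :=
  ((subStep asg B (parR B) (parT B) L)^[parT B] ([], [])).2

/-! ### Selection of the contracted circles -/

/-- Contracted circles, flows, denominator. -/
abbrev Sel := List Cir × List ℕ × ℕ

/-- The big circles which are not contracted and not left. -/
def zs (asg : List Unit × List (List ℕ) → List ℕ) (B : ℕ) (L F : List Cir) : List ℕ :=
  (List.range L.length).filter (fun k => big (L.getD k []) && !decide (L.getD k [] ∈ F) &&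
    decide (lv (nodes L F) (asgF asg B F (nodes L F)) (L.getD k []) = 0))

/-- Contraction of the circle with index `k`. -/
def selUpd (L : List Cir) (N : List Cir) (P : List ℕ) (s : Sel) (k : ℕ) : Sel :=
  (L.getD k [] :: s.1, (List.range L.length).map (fun j =>
    s.2.1.getD j 0 + (s.2.1.getD k 0 - s.2.2) * lv N P (L.getD j [])),
    max s.2.2 (s.2.1.getD k 0))

/-- One step of the selection. -/
def selStep (asg : List Unit × List (List ℕ) → List ℕ) (B : ℕ) (L : List Cir) (s : Sel) : Sel :=
  if (zs asg B L s.1).isEmpty then s
  else selUpd L (nodes L s.1) (asgF asg B s.1 (nodes L s.1)) s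
    (amin (fun j => s.2.1.getD j 0) 0 (zs asg B L s.1))

/-- The final set of contracted circles. -/
def selF (asg : List Unit × List (List ℕ) → List ℕ) (B : ℕ) (L : List Cir) : List Cir :=
  ((selStep asg B L)^[L.length] ([], sub asg B L, parT B)).1

/-! ### Closed walks -/

/-- Traversal of the circle `n` from `a`, one lap, and further to `h`. -/
def trav (n : Cir) (a h : List ℕ) : Cir :=
  n.rotate (n.idxOf a) ++
    (n.rotate (n.idxOf a)).take (((n.rotate (n.idxOf a)).idxOf h + 1) % n.length)

/-- Visit of the class `n`. -/
def seg (F : List Cir) (n : Cir) (a h : List ℕ) : Cir := if decide (n ∈ F) then trav n a h else n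

/-- Arcs of a cycle of classes, with the strings which are used. -/
def arcsY (B : ℕ) (F κ : List Cir) : List ((Cir × Cir) × ((List ℕ × ℕ) × (List ℕ × ℕ))) :=
  (cprs [] κ).map (fun e => (e, pk B F e.1 e.2))

/-- The closed walk of a cycle of classes. -/
def walkY (B : ℕ) (F κ : List Cir) : Cir :=
  ((cprs (([], []), ([], 0), ([], 0)) (arcsY B F κ)).map
    (fun f => seg F f.1.1.2 f.1.2.2.1 f.2.2.1.1)).flatten

/-- The cycles of classes of an assignment. -/
def ycs (M : List (List ℕ)) (N : List Cir) (P : List ℕ) : List (List Cir) :=
  (joinFold N.length (arcsS M P N.length)).map (fun κ => κ.map (fun i => N.getD i []))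

/-- The closed walks before splicing. -/
def walks0 (B : ℕ) (L F : List Cir) (P : List ℕ) : List Cir :=
  L.filter (fun c => !decide (c ∈ F)) ++
    (ycs (gmat B F (nodes L F)) (nodes L F) P).map (walkY B F)

/-- The first position of a string of `c` which is in `d`. -/
def comI (c d : Cir) : Option ℕ :=
  (List.range c.length).find? (fun i => decide (c.getD i [] ∈ d))

/-- The first position of a string. -/
def posI (d : Cir) (s : List ℕ) : ℕ :=
  ((List.range d.length).find? (fun j => decide (d.getD j [] = s))).getD 0

/-- Splicing of two walks at the string with position `i` of `c`. -/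
def splI (c d : Cir) (i : ℕ) : Cir := rotA c i ++ rotA d (posI d (c.getD i []))

/-- Splicing of `d` to the walk `st.1`, if they have a common string. -/
def insStep (st : Cir × List Cir) (d : Cir) : Cir × List Cir :=
  if (comI st.1 d).isSome then (splI st.1 d ((comI st.1 d).getD 0), st.2) else (st.1, d :: st.2)

/-- Inserting a walk. -/
def insertW (Om : List Cir) (c : Cir) : List Cir :=
  (Om.foldl insStep (c, [])).1 :: (Om.foldl insStep (c, [])).2

/-- Splicing. -/
def spliceAll (ws : List Cir) : List Cir := ws.foldl insertW []

/-! ### Output -/

/-- Four laps of a closed walk. -/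
def laps (c : Cir) : List ℕ := (List.replicate 4 ((mergeL c).take (cycW c))).flatten

/-- The shortest prefix of `w` which contains all strings of `c` (or `mergeL c`). -/
def spre (c : Cir) (w : List ℕ) : List ℕ :=
  (((List.range (w.length + 1)).map (fun l => w.take l)).find?
    (fun u => c.all (fun s => infB s u))).getD (mergeL c)

/-- Candidates for the walk `c`. -/
def cnds (L : List Cir) (c : Cir) : List (List ℕ) :=
  (List.range (cycW c)).map (fun i => spre c ((laps c).drop i)) ++
    (L.filter (fun d => c.all (fun s => decide (s ∈ d)))).map mergeL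

/-- Output for the walk `c`. -/
def outW (L : List Cir) (c : Cir) : List ℕ :=
  (cnds L c).foldl (fun u v => if v.length < u.length then v else u) (mergeL c)

/-- Output for the contracted circles `F` and the assignment `P`. -/
def outF (S : List (List ℕ)) (L F : List Cir) (P : List ℕ) : List ℕ :=
  ((spliceAll (walks0 (bnd S) L F P)).map (outW L)).flatten

/-- The last assignment. -/
def lastP (asg : List Unit × List (List ℕ) → List ℕ) (S : List (List ℕ)) (L : List Cir) :
    List ℕ := asgF asg (bnd S) (selF asg (bnd S) L) (nodes L (selF asg (bnd S) L))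

/-- The algorithm (for substring free families). -/
def algY (asg : List Unit × List (List ℕ) → List ℕ) (cover : List (List ℕ) → List Cir)
    (S : List (List ℕ)) : List ℕ :=
  outF S (cover S) (selF asg (bnd S) (cover S)) (lastP asg S (cover S))

/-! ### Statements of the parts -/

/-- Sets of contracted circles. -/
structure FOk (L F : List Cir) : Prop where
  nodup : F.Nodup
  sub : ∀ c ∈ F, c ∈ L
  big : ∀ c ∈ F, big c = true

/-- Every big circle which is not contracted is left. -/
def Left (L F : List Cir) (P : List ℕ) : Prop :=
  ∀ c ∈ L, big c = true → c ∉ F → 0 < lv (nodes L F) P c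

/-- M0: the selection ends with all big circles contracted or left. -/
def PartM0 : Prop := ∀ asg, AsgOk asg → ∀ S L, Sfree S → MinCover S L →
  FOk L (selF asg (bnd S) L) ∧
    (lastP asg S L).Perm (List.range (nodes L (selF asg (bnd S) L)).length) ∧
    Left L (selF asg (bnd S) L) (lastP asg S L)

/-- M: the cost of the last assignment. -/
def PartM : Prop := ∀ asg, AsgOk asg → ∀ S L T, Sfree S → MinCover S L →
  IsSuperstring S T →
  ((nodes L (selF asg (bnd S) L)).map (base2 (selF asg (bnd S) L))).sum +
      2 * bnd S * (nodes L (selF asg (bnd S) L)).length ≤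
    asgVal (gmat (bnd S) (selF asg (bnd S) L) (nodes L (selF asg (bnd S) L))) (lastP asg S L) +
      2 * T.length

/-- B: length of the output. -/
def PartB : Prop := ∀ S L F P, Sfree S → MinCover S L → FOk L F →
  P.Perm (List.range (nodes L F).length) → Left L F P →
  2 * (outF S L F P).length + asgVal (gmat (bnd S) F (nodes L F)) P ≤
    2 * (L.map cycW).sum + ((nodes L F).map (base2 F)).sum + 2 * bnd S * (nodes L F).length

/-- C: the output is a superstring. -/
def PartC : Prop := ∀ S L F P, Sfree S → MinCover S L → FOk L F →
  P.Perm (List.range (nodes L F).length) → IsSuperstring S (outF S L F P)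

/-- P: polynomial time. -/
def PartP : Prop := ∀ asg cover, PT ∅ asg → PT ∅ cover → PT ∅ (algY asg cover)

end Vale.Agent.P333.Y
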