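import Mathlib
import Vale.Agent.P333.Y.Defs

set_option linter.all false

/-!
P333, ratio `2`: statements of the parts of the bound for the output (`PartB`).
-/

namespace Vale.Agent.P333.Y

open Vale.Agent.P333 Vale.Agent.P333.U Vale.Agent.P333.E Vale.Agent.P333.G Vale.Agent.Lib.PolyTime

/-! ### B1: traversals -/

/-- The traversal of `D` with exit arc `e1` (exit `e1.1`) and entry arc `e2` (entry `e2.2`). -/
structure TravOk (D : Cir) (e1 e2 : List ℕ × List ℕ) (δ ε : ℕ) : Prop where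
  d1 : δ ≤ cycW D
  d2 : ε ≤ cycW D
  l1 : (mergeL (trav D e2.2 e1.1)).length = cycW D + δ + ov e1.1 e1.2
  l2 : (mergeL (trav D e2.2 e1.1)).length = cycW D + ε + ov e2.1 e2.2
  ne : trav D e2.2 e1.1 ≠ []
  hd : (trav D e2.2 e1.1).headD [] = e2.2
  ls : (trav D e2.2 e1.1).getLastD [] = e1.1
  sub : ∀ s, s ∈ trav D e2.2 e1.1 ↔ s ∈ D
  occ : ∀ (Z : ℕ → ℕ) (P : ℕ), OccAt Z (mergeL (trav D e2.2 e1.1)) P →
    (∀ i, P ≤ i → i + cycW D < P + (mergeL (trav D e2.2 e1.1)).length →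
      Z (i + cycW D) = Z i) ∧
    ∀ s ∈ D, (∃ x, OccAt Z s x ∧ OccAt Z s (x + cycW D)) ∨
      ∃ x, P + δ ≤ x ∧ x + s.length + ε ≤ P + (mergeL (trav D e2.2 e1.1)).length ∧ OccAt Z s x

/-- B1. -/
def PartB1 : Prop := ∀ S, Sfree S → ∀ D : Cir, D ≠ [] → D.Nodup → (∀ s ∈ D, s ∈ S) →
  ∀ e1 ∈ cprs [] D, ∀ e2 ∈ cprs [] D, ∃ δ ε, TravOk D e1 e2 δ ε

/-! ### B2: the walks of the cycles of classes -/

/-- An arc between classes and the strings which are used, with penalties. -/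
abbrev Arc := (Cir × Cir) × ((List ℕ × ℕ) × (List ℕ × ℕ))

/-- The default value. -/
def arc0 : Arc := (([], []), ([], 0), ([], 0))

/-- The slack of the visit of the class `f.1.1.2` between the arcs `f.1` and `f.2`. -/
def slk (F : List Cir) (f : Arc × Arc) : ℕ :=
  if decide (f.1.1.1 = f.1.1.2) then 2 * cycO f.1.1.2
  else 4 * cycW f.1.1.2 + f.1.2.2.2 + f.2.2.1.2 -
    2 * (mergeL (seg F f.1.1.2 f.1.2.2.1 f.2.2.1.1)).length

/-- Visits of contracted circles. -/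
def visF (B : ℕ) (F κ : List Cir) : List (Arc × Arc) :=
  (cprs arc0 (arcsY B F κ)).filter (fun f => decide (f.1.1.2 ∈ F))

/-- B2: accounting. -/
def PartB2 : Prop := ∀ S L F, Sfree S → MinCover S L → FOk L F →
  ∀ κ : List Cir, κ ≠ [] → κ.Nodup → (∀ n ∈ κ, n ∈ nodes L F) →
  (2 * cycW (walkY (bnd S) F κ) + ((visF (bnd S) F κ).map (slk F)).sum +
      ((cprs [] κ).map (fun e => gn (bnd S) F e.1 e.2)).sum =
    (κ.map (fun n => if decide (n ∈ F) then 2 * cycW n else 0)).sum + (κ.map (base2 F)).sum +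
      2 * bnd S * κ.length) ∧
  (∀ s, s ∈ walkY (bnd S) F κ ↔ ∃ n ∈ κ, s ∈ n) ∧
  (∀ n ∈ κ, n ∈ F → ∃ f ∈ visF (bnd S) F κ, f.1.1.2 = n) ∧
  (∀ f ∈ visF (bnd S) F κ, f.1.1.2 ∈ κ ∧ f.2.1.1 = f.1.1.2 ∧
    (f.1.1.1 = f.1.1.2 → κ = [f.1.1.2] ∧ walkY (bnd S) F κ = f.1.1.2) ∧
    (∃ e1 ∈ cprs [] f.1.1.2, ∃ e2 ∈ cprs [] f.1.1.2, f.2.2.1 = (e1.1, ov e1.1 e1.2) ∧
      f.1.2.2 = (e2.2, ov e2.1 e2.2)) ∧
    seg F f.1.1.2 f.1.2.2.1 f.2.2.1.1 <:+: walkY (bnd S) F κ)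

/-! ### B3: splicing -/

/-- The walk `W` is obtained by splicing the walks of `G`. -/
structure Spl (G : List Cir) (W : Cir) : Prop where
  ne : G ≠ []
  perm : W.Perm G.flatten
  cyc : cycW W = (G.map cycW).sum
  blk : ∀ c R, G.Perm (c :: R) → ∀ B k, B ≠ [] → B <:+: c.rotate k →
    (∀ s ∈ B, ∀ d ∈ R, s ∉ d) → ∃ k', B <:+: W.rotate k'

/-- B3. -/
def PartB3 : Prop := ∀ ws : List Cir, ∃ Gs : List (List Cir),
  List.Forall₂ Spl Gs (spliceAll ws) ∧ Gs.flatten.Perm ws ∧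
    (spliceAll ws).Pairwise (fun c d => ∀ s ∈ c, s ∉ d)

/-! ### B4: one component -/

/-- A contracted circle with the exit arc and the entry arc. -/
abbrev Rcd := Cir × (List ℕ × List ℕ) × (List ℕ × List ℕ)

/-- The slack of a record. -/
def rslk (r : Rcd) : ℕ := 4 * cycW r.1 + ov r.2.1.1 r.2.1.2 + ov r.2.2.1 r.2.2.2 -
  2 * (mergeL (trav r.1 r.2.2.2 r.2.1.1)).length

/-- The properties of a closed walk after splicing. -/
structure Comp (L F : List Cir) (c : Cir) (K : List Rcd) : Prop where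
  ne : c ≠ []
  sub : ∀ s ∈ c, s ∈ L.flatten
  cl : ∀ C ∈ L, ∀ s ∈ C, s ∈ c → ∀ t ∈ C, t ∈ c
  twice : ∀ C ∈ L, C ∉ F → ∀ s ∈ C, s ∈ c → 2 ≤ c.count s
  rcd : ∀ r ∈ K, r.1 ∈ F ∧ r.2.1 ∈ cprs [] r.1 ∧ r.2.2 ∈ cprs [] r.1 ∧
    ∃ k, trav r.1 r.2.2.2 r.2.1.1 <:+: c.rotate k
  all : ∀ D ∈ F, ∀ s ∈ D, s ∈ c → ∃ r ∈ K, r.1 = D

/-- B4b: one circle. -/
def PartB4b : Prop := ∀ L c C, C ∈ L → (∀ s ∈ c, s ∈ C) →
  (outW L c).length ≤ cycW C + cycO C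

/-- B4c: at least two circles, the word of the walk has a smaller period. -/
def PartB4c : Prop := ∀ S L F c K, Sfree S → MinCover S L → FOk L F → Comp L F c K →
  (∃ C ∈ L, ∃ D ∈ L, C ≠ D ∧ (∃ s ∈ C, s ∈ c) ∧ ∃ s ∈ D, s ∈ c) →
  (∃ q, 0 < q ∧ q < cycW c ∧ ∀ k, cycWord c (k + q) = cycWord c k) →
  (outW L c).length ≤ cycW c

/-- B4d: at least two circles, primitive word. -/
def PartB4d : Prop := ∀ S L F c K, Sfree S → MinCover S L → FOk L F → Comp L F c K →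
  (∃ C ∈ L, ∃ D ∈ L, C ≠ D ∧ (∃ s ∈ C, s ∈ c) ∧ ∃ s ∈ D, s ∈ c) →
  (¬ ∃ q, 0 < q ∧ q < cycW c ∧ ∀ k, cycWord c (k + q) = cycWord c k) →
  2 * (outW L c).length ≤ 2 * cycW c + (K.map rslk).sum

/-- B5: assembly. -/
def PartB5 : Prop := PartB1 → PartB2 → PartB3 → PartB4b → PartB4c → PartB4d → PartB

end Vale.Agent.P333.Y
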