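import Mathlib
import Vale.Agent.P333.Y.Defs
import Vale.Agent.P333.G.Main

set_option linter.all false

/-!
P333, ratio `2`: assembly.
-/

namespace Vale.Agent.P333.Y

open Vale.Agent.P333 Vale.Agent.P333.U Vale.Agent.P333.E Vale.Agent.P333.G Vale.Agent.Lib.PolyTime

/-- Assembly. -/
theorem hasApprox_two_of (m0 : PartM0) (m : PartM) (b : PartB) (c : PartC) (p : PartP) :
    HasApprox 2 := by
  obtain ⟨asg, ha1, ha2⟩ := assignAlg
  obtain ⟨cover, hc1, hc2⟩ := coverAlg assignAlg
  have key : HasApprox (((2 : ℕ) : ℝ) / ((1 : ℕ) : ℝ)) := by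
    refine hasApprox_of_ratio one_pos (algY asg cover) (p asg cover ha1 hc1) fun S hS => ?_
    have hL := hc2 S hS
    set L := cover S with hLdef
    obtain ⟨hF, hP, hleft⟩ := m0 asg ha2 S L hS hL

    refine ⟨c S L _ (lastP asg S L) hS hL hF hP, fun T hT => ?_⟩
    have h1 := m asg ha2 S L T hS hL hT
    have h2 := b S L _ (lastP asg S L) hS hL hF hP hleft
    have h3 := wordsW S L T hS hL hT
    have h4 : (algY asg cover S).length = (outF S L (selF asg (bnd S) L) (lastP asg S L)).length := rfl
    rw [h4]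
    omega
  simpa using key

end Vale.Agent.P333.Y
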