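import Mathlib
import Vale.Agent.P333.Y.Main
import Vale.Agent.P333.H950.M0
import Vale.Agent.P333.H29.PartM
import Vale.Agent.P333.H196.PartB
import Vale.Agent.P333.H241.PartC
import Vale.Agent.P333.H514.PartP

set_option linter.all false

/-!
P333, ratio `2`: final assembly.
-/

namespace Vale.Agent.P333.Y

open Vale.Agent.P333

/-- There is a polynomial time `2`-approximation for the shortest common superstring problem. -/
theorem hasApprox_two : HasApprox 2 :=
  hasApprox_two_of H950.partM0 H29.partM (H196.partB_of_4b H241.partB4b) H241.partC partP

end Vale.Agent.P333.Y
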